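import Vale.Agent.P207.H761.Hol

/-!
# P207, all dimensions: the derivative of the stable holonomy, for `lam lp mu < 1`

The remainder estimate by telescoping: `h u = Q n (hn n (P n u))`, `hn n = F n + O(δ lp^n)`, and the
differences `Q (n + 1) ∘ F (n + 1) ∘ P (n + 1) - Q n ∘ F n ∘ P n` are small to the second order.
-/

namespace Vale.Agent.P207.H832.T3

open Filter Topology Set
open Vale.Agent.P207.H761 (KL KL_nonneg)

/-- the constant -/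
noncomputable def KF (C mu r rho κ : ℝ) : ℝ :=
  2 * C ^ 2 * (C * mu) ^ (1 + κ) + C * C ^ (1 + κ) / (1 - rho) + C + KL C r * (C * mu) ^ κ

theorem KF_nonneg {C mu r rho κ : ℝ} (hC : 0 ≤ C) (hmu : 0 ≤ mu) (hr : r < 1) (hrho : rho < 1) :
    0 ≤ KF C mu r rho κ := by
  have h1 := KL_nonneg hC hr
  have h2 : 0 < 1 - rho := by linarith
  have h3 : 0 ≤ C * mu := mul_nonneg hC hmu
  have h4 : 0 ≤ (C * mu) ^ (1 + κ) := Real.rpow_nonneg h3 _
  have h5 : 0 ≤ (C * mu) ^ κ := Real.rpow_nonneg h3 _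
  have h6 : 0 ≤ C ^ (1 + κ) := Real.rpow_nonneg hC _
  unfold KF
  positivity

/-- the exponent exists -/
theorem exists_exponent {r mu : ℝ} (hr0 : 0 < r) (hr : r < 1) (hmu : 1 < mu) :
    ∃ κ : ℝ, 0 < κ ∧ κ ≤ 1 ∧ r * mu ^ κ < 1 := by
  have h1 : 0 < Real.log mu := Real.log_pos hmu
  have h2 : 0 < -Real.log r := by
    have := Real.log_neg hr0 hr
    linarith
  set k : ℝ := -Real.log r / (2 * Real.log mu) with hk
  have hk0 : 0 < k := by positivity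
  refine ⟨min 1 k, lt_min one_pos hk0, min_le_left _ _, ?_⟩
  have h3 : mu ^ (min 1 k) ≤ mu ^ k :=
    Real.rpow_le_rpow_of_exponent_le hmu.le (min_le_right _ _)
  have h4 : mu ^ k = Real.exp (-Real.log r / 2) := by
    rw [Real.rpow_def_of_pos (by linarith), hk]
    congr 1
    field_simp
  calc r * mu ^ (min 1 k) ≤ r * mu ^ k := by gcongr
    _ = Real.exp (Real.log r) * Real.exp (-Real.log r / 2) := by rw [h4, Real.exp_log hr0]
    _ = Real.exp (Real.log r / 2) := by rw [← Real.exp_add]; congr 1; ring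
    _ < 1 := by
        rw [Real.exp_lt_one_iff]
        linarith

section Der

variable {E : Type*} [NormedAddCommGroup E] [NormedSpace ℝ E]

/-- **the remainder of the first order**, for `lam lp mu < 1` -/
theorem hol_deriv3 {lam lp mu rho C c δ κ : ℝ} (hlam : 0 < lam) (hlam1 : lam < 1)
    (hlp : 0 < lp) (hmu : 1 ≤ mu)
    (hC : 1 ≤ C) (hc0 : 0 < c) (hδ : 0 ≤ δ) (hκ : 0 ≤ κ) (hκ1 : κ ≤ 1) (hr : lam * lp * mu < 1)
    (hrho : lam * lp * mu * mu ^ κ ≤ rho) (hrho1 : rho < 1)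
    {P Q : ℕ → E →L[ℝ] E} {L : E →L[ℝ] E} (P0 : P 0 = 1) (Q0 : Q 0 = 1)
    (hP : ∀ n, ‖P n‖ ≤ C * mu ^ n) (hQ : ∀ n, ‖Q n‖ ≤ C * lam ^ n)
    (hL : ∀ n, ‖(Q n).comp (P n) - L‖ ≤ KL C (lam * lp * mu) * δ * (lam * lp * mu) ^ n)
    (hexp : ∀ n u, c * (lam⁻¹) ^ n * ‖u‖ ≤ ‖P n u‖)
    {h : E → E} {hn F : ℕ → E → E}
    (hh : ∀ n u, ‖P n u‖ ≤ 1 → h u = Q n (hn n (P n u)))
    (hcl : ∀ n w, ‖w‖ ≤ 1 → ‖hn n w - F n w‖ ≤ C * (δ * lp ^ n))
    (hF0 : ∀ w, ‖w‖ ≤ 1 → ‖F 0 w - F 0 0 - w‖ ≤ C * ‖w‖ ^ 2)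
    (hR : ∀ n w, ‖P n w‖ ≤ 1 → ‖P (n + 1) w‖ ≤ 1 →
      ‖(Q (n + 1) (F (n + 1) (P (n + 1) w)) - Q n (F n (P n w))) -
        (Q (n + 1) (F (n + 1) 0) - Q n (F n 0)) - (Q (n + 1) (P (n + 1) w) - Q n (P n w))‖ ≤
        C * (δ * (lam * lp) ^ n) * ‖P n w‖ ^ 2) :
    ∀ u, ‖u‖ ≤ 1 → ‖h u - h 0 - L u‖ ≤
      KF C mu (lam * lp * mu) rho κ * (1 + δ) * ‖u‖ ^ (1 + κ) := by
  intro u hu
  set r := lam * lp * mu with hrdef
  have hmu0 : 0 < mu := by linarith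
  have hC0 : 0 < C := by linarith
  have hr0 : 0 < r := by positivity
  have hKL := KL_nonneg hC0.le hr
  have hKF : 0 ≤ KF C mu r rho κ := KF_nonneg hC0.le hmu0.le hr hrho1
  rcases eq_or_ne u 0 with rfl | hu0
  · simp only [sub_self, map_zero, norm_zero]
    positivity
  have hun : 0 < ‖u‖ := norm_pos_iff.2 hu0
  have hex : ∃ N, 1 < ‖P N u‖ := by
    have h1 : 1 < lam⁻¹ := (one_lt_inv₀ hlam).2 hlam1
    obtain ⟨N, hN⟩ := pow_unbounded_of_one_lt (1 / (c * ‖u‖)) h1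
    refine ⟨N, lt_of_lt_of_le ?_ (hexp N u)⟩
    rw [div_lt_iff₀ (by positivity)] at hN
    linarith
  classical
  set N := Nat.find hex with hNdef
  have hN : 1 < ‖P N u‖ := Nat.find_spec hex
  have hN0 : N ≠ 0 := by
    intro h0
    rw [h0, P0] at hN
    simp only [one_apply_eq_self] at hN
    linarith
  obtain ⟨n, hn1⟩ := Nat.exists_eq_succ_of_ne_zero hN0
  have hle : ∀ m, m ≤ n → ‖P m u‖ ≤ 1 := fun m hm => by
    have := Nat.find_min hex (m := m) (by omega)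
    exact not_lt.1 this
  -- `mu ^ (-n) ≤ C mu ‖u‖`
  have hsm : 1 ≤ (C * mu * ‖u‖) * mu ^ n := by
    have h2 : ‖P (n + 1) u‖ ≤ C * mu ^ (n + 1) * ‖u‖ :=
      ((P (n + 1)).le_opNorm u).trans (mul_le_mul_of_nonneg_right (hP (n + 1)) hun.le)
    rw [← Nat.succ_eq_add_one, ← hn1] at h2
    rw [hn1, Nat.succ_eq_add_one] at h2
    have h3 : 1 < ‖P (n + 1) u‖ := by
      rw [← Nat.succ_eq_add_one, ← hn1]; exact hN
    have h4 : C * mu ^ (n + 1) * ‖u‖ = (C * mu * ‖u‖) * mu ^ n := by ring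
    linarith
  have hx0 : 0 < C * mu * ‖u‖ := by positivity
  have hmun : 0 < mu ^ n := by positivity
  -- `rⁿ ≤ (C mu ‖u‖)^κ`
  have hmuk : ((mu ^ n : ℝ)) ^ κ = (mu ^ κ) ^ n := by
    rw [← Real.rpow_natCast, ← Real.rpow_natCast, ← Real.rpow_mul hmu0.le, ← Real.rpow_mul hmu0.le]
    congr 1
    ring
  have hge : 1 ≤ (C * mu * ‖u‖) ^ κ * (mu ^ κ) ^ n := by
    rw [← hmuk, ← Real.mul_rpow hx0.le hmun.le]
    exact Real.one_le_rpow hsm hκ
  have hge2 : 1 ≤ (C * mu * ‖u‖) ^ (1 + κ) * (mu ^ n * (mu ^ κ) ^ n) := by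
    rw [Real.rpow_add hx0, Real.rpow_one]
    calc (1 : ℝ) = 1 * 1 := by ring
      _ ≤ ((C * mu * ‖u‖) * mu ^ n) * ((C * mu * ‖u‖) ^ κ * (mu ^ κ) ^ n) := by gcongr
      _ = _ := by ring
  have hmk0 : 0 < mu ^ κ := Real.rpow_pos_of_pos hmu0 _
  have hrm1 : r * mu ^ κ ≤ 1 := hrho.trans hrho1.le
  have hrn : r ^ n ≤ (C * mu * ‖u‖) ^ κ := by
    calc r ^ n = r ^ n * 1 := by ring
      _ ≤ r ^ n * ((C * mu * ‖u‖) ^ κ * (mu ^ κ) ^ n) := by gcongr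
      _ = (C * mu * ‖u‖) ^ κ * (r * mu ^ κ) ^ n := by rw [mul_pow]; ring
      _ ≤ (C * mu * ‖u‖) ^ κ * 1 := by
          have h0 : 0 ≤ (C * mu * ‖u‖) ^ κ := Real.rpow_nonneg hx0.le _
          gcongr
          exact pow_le_one₀ (by positivity) hrm1
      _ = _ := by ring
  have hln : (lam * lp) ^ n ≤ (C * mu * ‖u‖) ^ (1 + κ) := by
    calc (lam * lp) ^ n = (lam * lp) ^ n * 1 := by ring
      _ ≤ (lam * lp) ^ n * ((C * mu * ‖u‖) ^ (1 + κ) * (mu ^ n * (mu ^ κ) ^ n)) := by gcongr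
      _ = (C * mu * ‖u‖) ^ (1 + κ) * (r * mu ^ κ) ^ n := by
          rw [hrdef, mul_pow (lam * lp * mu), mul_pow (lam * lp)]; ring
      _ ≤ (C * mu * ‖u‖) ^ (1 + κ) * 1 := by
          have h0 : 0 ≤ (C * mu * ‖u‖) ^ (1 + κ) := Real.rpow_nonneg hx0.le _
          gcongr
          exact pow_le_one₀ (by positivity) hrm1
      _ = _ := by ring
  have hxk : (C * mu * ‖u‖) ^ κ = (C * mu) ^ κ * ‖u‖ ^ κ := Real.mul_rpow (by positivity) hun.le
  have hxk1 : (C * mu * ‖u‖) ^ (1 + κ) = (C * mu) ^ (1 + κ) * ‖u‖ ^ (1 + κ) :=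
    Real.mul_rpow (by positivity) hun.le
  have huk : ‖u‖ ^ (1 + κ) = ‖u‖ * ‖u‖ ^ κ := by rw [Real.rpow_add hun, Real.rpow_one]
  -- the telescoping sum
  set T : ℕ → E := fun s => (Q (s + 1) (F (s + 1) (P (s + 1) u)) - Q s (F s (P s u))) -
        (Q (s + 1) (F (s + 1) 0) - Q s (F s 0)) - (Q (s + 1) (P (s + 1) u) - Q s (P s u)) with hT
  have htel : ∀ m, Q m (F m (P m u)) - Q m (F m 0) - Q m (P m u) =
      ∑ s ∈ Finset.range m, T s + (F 0 u - F 0 0 - u) := by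
    intro m
    induction m with
    | zero => simp [P0, Q0]
    | succ m ih =>
      have hTm : T m = (Q (m + 1) (F (m + 1) (P (m + 1) u)) - Q m (F m (P m u))) -
        (Q (m + 1) (F (m + 1) 0) - Q m (F m 0)) - (Q (m + 1) (P (m + 1) u) - Q m (P m u)) := rfl
      rw [Finset.sum_range_succ, add_right_comm, ← ih, hTm]
      generalize Q (m + 1) (F (m + 1) (P (m + 1) u)) = x1
      generalize Q m (F m (P m u)) = x2
      generalize Q (m + 1) (F (m + 1) 0) = x3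
      generalize Q m (F m 0) = x4
      generalize Q (m + 1) (P (m + 1) u) = x5
      generalize Q m (P m u) = x6
      abel
  have hTs : ∀ s, s < n → ‖T s‖ ≤ C * δ * C ^ (1 + κ) * ‖u‖ ^ (1 + κ) * rho ^ s := by
    intro s hs
    have h1 := hR s u (hle s hs.le) (hle (s + 1) hs)
    refine h1.trans ?_
    have h2 : ‖P s u‖ ≤ C * mu ^ s * ‖u‖ :=
      ((P s).le_opNorm u).trans (mul_le_mul_of_nonneg_right (hP s) hun.le)
    have h3 : ‖P s u‖ ^ 2 ≤ ‖P s u‖ ^ (1 + κ) := by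
      rcases eq_or_lt_of_le (norm_nonneg (P s u)) with h | h
      · rw [← h, Real.zero_rpow (by linarith)]
        norm_num
      · have h5 := Real.rpow_le_rpow_of_exponent_ge h (hle s hs.le)
          (by linarith : (1 + κ) ≤ 2)
        rw [Real.rpow_two] at h5
        exact h5
    have h4 : ‖P s u‖ ^ (1 + κ) ≤ (C * mu ^ s * ‖u‖) ^ (1 + κ) :=
      Real.rpow_le_rpow (norm_nonneg _) h2 (by linarith)
    have hmus : ((mu ^ s : ℝ)) ^ κ = (mu ^ κ) ^ s := by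
      rw [← Real.rpow_natCast, ← Real.rpow_natCast, ← Real.rpow_mul hmu0.le,
        ← Real.rpow_mul hmu0.le]
      congr 1
      ring
    have h5 : (C * mu ^ s * ‖u‖) ^ (1 + κ) = C ^ (1 + κ) * (mu ^ s * (mu ^ κ) ^ s) *
        ‖u‖ ^ (1 + κ) := by
      rw [Real.mul_rpow (by positivity) hun.le, Real.mul_rpow hC0.le (by positivity),
        Real.rpow_add (x := mu ^ s) (by positivity), Real.rpow_one, hmus]
    have h6 : 0 ≤ C ^ (1 + κ) := Real.rpow_nonneg hC0.le _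
    have h7 : 0 ≤ ‖u‖ ^ (1 + κ) := Real.rpow_nonneg hun.le _
    calc C * (δ * (lam * lp) ^ s) * ‖P s u‖ ^ 2
        ≤ C * (δ * (lam * lp) ^ s) * (C ^ (1 + κ) * (mu ^ s * (mu ^ κ) ^ s) * ‖u‖ ^ (1 + κ)) := by
          rw [← h5]
          gcongr
          exact h3.trans h4
      _ = C * δ * C ^ (1 + κ) * ‖u‖ ^ (1 + κ) * (r * mu ^ κ) ^ s := by
          rw [hrdef, mul_pow (lam * lp * mu), mul_pow (lam * lp)]; ring
      _ ≤ C * δ * C ^ (1 + κ) * ‖u‖ ^ (1 + κ) * rho ^ s := by gcongr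
  have hrho0 : 0 ≤ rho := le_trans (by positivity) hrho
  have hgs : ∑ s ∈ Finset.range n, rho ^ s ≤ 1 / (1 - rho) := by
    have h1 := (hasSum_geometric_of_lt_one hrho0 hrho1)
    have h2 := sum_le_hasSum (Finset.range n) (fun s _ => by positivity) h1
    rwa [one_div]
  have hS : ‖∑ s ∈ Finset.range n, T s‖ ≤ C * δ * C ^ (1 + κ) * ‖u‖ ^ (1 + κ) * (1 / (1 - rho)) := by
    have h6 : 0 ≤ C ^ (1 + κ) := Real.rpow_nonneg hC0.le _
    have h7 : 0 ≤ ‖u‖ ^ (1 + κ) := Real.rpow_nonneg hun.le _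
    calc ‖∑ s ∈ Finset.range n, T s‖ ≤ ∑ s ∈ Finset.range n, ‖T s‖ := norm_sum_le _ _
      _ ≤ ∑ s ∈ Finset.range n, C * δ * C ^ (1 + κ) * ‖u‖ ^ (1 + κ) * rho ^ s :=
          Finset.sum_le_sum fun s hs => hTs s (Finset.mem_range.1 hs)
      _ = C * δ * C ^ (1 + κ) * ‖u‖ ^ (1 + κ) * ∑ s ∈ Finset.range n, rho ^ s := by
          rw [Finset.mul_sum]
      _ ≤ _ := by gcongr
  -- the error at the time `n`
  have hEr : ∀ w, ‖w‖ ≤ 1 → ‖Q n (hn n w - F n w)‖ ≤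
      C ^ 2 * δ * ((C * mu) ^ (1 + κ) * ‖u‖ ^ (1 + κ)) := by
    intro w hw
    calc ‖Q n (hn n w - F n w)‖ ≤ ‖Q n‖ * ‖hn n w - F n w‖ := (Q n).le_opNorm _
      _ ≤ (C * lam ^ n) * (C * (δ * lp ^ n)) := by
          have h0 : 0 ≤ C * lam ^ n := by positivity
          exact mul_le_mul (hQ n) (hcl n w hw) (norm_nonneg _) h0
      _ = C ^ 2 * δ * (lam * lp) ^ n := by rw [mul_pow]; ring
      _ ≤ C ^ 2 * δ * ((C * mu) ^ (1 + κ) * ‖u‖ ^ (1 + κ)) := by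
          rw [← hxk1]
          gcongr
  have hLu : ‖((Q n).comp (P n) - L) u‖ ≤ KL C r * δ * ((C * mu) ^ κ * ‖u‖ ^ (1 + κ)) := by
    calc ‖((Q n).comp (P n) - L) u‖ ≤ ‖(Q n).comp (P n) - L‖ * ‖u‖ :=
          ((Q n).comp (P n) - L).le_opNorm u
      _ ≤ (KL C r * δ * r ^ n) * ‖u‖ := mul_le_mul_of_nonneg_right (hL n) hun.le
      _ ≤ (KL C r * δ * (C * mu * ‖u‖) ^ κ) * ‖u‖ := by gcongr
      _ = _ := by rw [hxk, huk]; ring
  have hF : ‖F 0 u - F 0 0 - u‖ ≤ C * ‖u‖ ^ (1 + κ) := by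
    refine (hF0 u hu).trans ?_
    have h5 := Real.rpow_le_rpow_of_exponent_ge hun hu (by linarith : (1 + κ) ≤ 2)
    rw [Real.rpow_two] at h5
    gcongr
  have hz : ‖P n 0‖ ≤ 1 := by simp
  have e1 : h u - h 0 - L u = Q n (hn n (P n u) - F n (P n u)) - Q n (hn n 0 - F n 0) +
      (∑ s ∈ Finset.range n, T s + (F 0 u - F 0 0 - u)) + ((Q n).comp (P n) - L) u := by
    rw [← htel n, hh n u (hle n le_rfl), hh n 0 hz, map_zero, map_sub, map_sub, sub_apply,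
      ContinuousLinearMap.comp_apply]
    abel
  rw [e1]
  have hk1 : 0 ≤ ‖u‖ ^ (1 + κ) := Real.rpow_nonneg hun.le _
  have hd1 : 0 < 1 - rho := by linarith
  calc ‖Q n (hn n (P n u) - F n (P n u)) - Q n (hn n 0 - F n 0) +
      (∑ s ∈ Finset.range n, T s + (F 0 u - F 0 0 - u)) + ((Q n).comp (P n) - L) u‖
      ≤ (C ^ 2 * δ * ((C * mu) ^ (1 + κ) * ‖u‖ ^ (1 + κ)) +
          C ^ 2 * δ * ((C * mu) ^ (1 + κ) * ‖u‖ ^ (1 + κ))) +
        (C * δ * C ^ (1 + κ) * ‖u‖ ^ (1 + κ) * (1 / (1 - rho)) + C * ‖u‖ ^ (1 + κ)) +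
        KL C r * δ * ((C * mu) ^ κ * ‖u‖ ^ (1 + κ)) := by
        refine (norm_add_le _ _).trans (add_le_add ((norm_add_le _ _).trans (add_le_add
          ((norm_sub_le _ _).trans (add_le_add (hEr _ (hle n le_rfl)) (hEr 0 (by simp))))
          ((norm_add_le _ _).trans (add_le_add hS hF)))) hLu)
    _ = (2 * C ^ 2 * (C * mu) ^ (1 + κ) * δ + C * C ^ (1 + κ) / (1 - rho) * δ + C * 1
        + KL C r * (C * mu) ^ κ * δ) * ‖u‖ ^ (1 + κ) := by ring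
    _ ≤ (2 * C ^ 2 * (C * mu) ^ (1 + κ) * (1 + δ) + C * C ^ (1 + κ) / (1 - rho) * (1 + δ)
        + C * (1 + δ) + KL C r * (C * mu) ^ κ * (1 + δ)) * ‖u‖ ^ (1 + κ) := by
        have h4 : 0 ≤ (C * mu) ^ (1 + κ) := Real.rpow_nonneg (by positivity) _
        have h5 : 0 ≤ (C * mu) ^ κ := Real.rpow_nonneg (by positivity) _
        have h6 : 0 ≤ C ^ (1 + κ) := Real.rpow_nonneg hC0.le _
        gcongr <;> linarith
    _ = _ := by rw [KF]; ring

end Der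

end Vale.Agent.P207.H832.T3
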