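import Vale.Agent.P207.H832.T3.HolB

/-!
# P207, all dimensions: T3, the abstract theorem, for `lam lp mu < 1`

As H761/HolSys, with the leaf maps `F i` (in the affine charts) as approximations of the holonomy.

`I` = pairs `(x, ξ')`, a frame and a close leaf; `H i` = the stable holonomy from the leaf of `x` to
the leaf of `ξ'` in the affine charts; `A i`, `A' i` = the time-one maps in the affine charts;
`t i` = the distance of the two leaves at `x`; `bc i u` = the pair at the point `u` of the leaf.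
-/

namespace Vale.Agent.P207.H832.T3

open Vale.Agent.P207.H761 (KL KL_nonneg hol_lim lim_comp hasFDerivAt_of_rem continuousOn_of_geo
  contDiffOn_one_of_hasFDerivAt)

open Filter Topology Set Metric

/-- The data. -/
structure HolSys2 (I E : Type*) [NormedAddCommGroup E] [NormedSpace ℝ E] where
  nx : I → I
  t : I → ℝ
  t_nonneg : ∀ i, 0 ≤ t i
  A : I → E ≃L[ℝ] E
  A' : I → E ≃L[ℝ] E
  lam : ℝ
  mu : ℝ
  C : ℝ
  lam_pos : 0 < lam
  lam_lt : lam < 1
  /-- the rate of `t` -/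
  lp : ℝ
  lp_pos : 0 < lp
  lp_le : lp ≤ 1
  mu_gt : 1 < mu
  pinch : lam * lp * mu < 1
  C_ge : 1 ≤ C
  t_iter : ∀ n i, t (nx^[n] i) ≤ C * lp ^ n * t i
  t_bd : ∀ i, t i ≤ C
  /-- the products `P n i = A (nx^[n-1] i) ∘ ... ∘ A i` -/
  P : ℕ → I → E ≃L[ℝ] E
  P_zero : ∀ i, P 0 i = ContinuousLinearEquiv.refl ℝ E
  P_succ : ∀ n i w, P (n + 1) i w = A (nx^[n] i) (P n i w)
  P' : ℕ → I → E ≃L[ℝ] E
  P'_zero : ∀ i, P' 0 i = ContinuousLinearEquiv.refl ℝ E
  P'_succ : ∀ n i w, P' (n + 1) i w = A' (nx^[n] i) (P' n i w)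
  P_bd : ∀ n i w, ‖P n i w‖ ≤ C * mu ^ n * ‖w‖
  P_inv : ∀ n i w, ‖(P n i).symm w‖ ≤ C * lam ^ n * ‖w‖
  P'_bd : ∀ n i w, ‖P' n i w‖ ≤ C * mu ^ n * ‖w‖
  P'_inv : ∀ n i w, ‖(P' n i).symm w‖ ≤ C * lam ^ n * ‖w‖
  /-- the one step maps are close -/
  close : ∀ i w, ‖A' i w - A i w‖ ≤ C * t i * ‖w‖
  /-- the holonomy in the affine charts -/
  H : I → E → E
  H_iter : ∀ n i w, ‖P n i w‖ ≤ 1 → P' n i (H i w) = H (nx^[n] i) (P n i w)
  H_zero : ∀ i, H i 0 = 0
  /-- the leaf maps -/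
  F : I → E → E
  H_close : ∀ i w, ‖w‖ ≤ 1 → ‖H i w - F i w‖ ≤ C * t i
  F_quad : ∀ i w, ‖w‖ ≤ 1 → ‖F i w - F i 0 - w‖ ≤ C * ‖w‖ ^ 2
  R_quad : ∀ i w, ‖w‖ ≤ 1 → ‖A i w‖ ≤ 1 → ‖((A' i).symm (F (nx i) (A i w)) - F i w) -
    ((A' i).symm (F (nx i) 0) - F i 0) - ((A' i).symm (A i w) - w)‖ ≤ C * t i * ‖w‖ ^ 2
  /-- change of the base point, for `i` in the good set `G` -/
  G : Set I
  ρ : ℝ
  ρ_pos : 0 < ρ
  bc : I → E → I
  R : I → E → E ≃L[ℝ] E
  R' : I → E → E ≃L[ℝ] E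
  H_bc : ∀ i ∈ G, ∀ u, ‖u‖ < ρ →
    ∀ᶠ w in 𝓝 (0 : E), H (bc i u) (R i u w) = R' i u (H i (u + w) - H i u)
  cont_P : ∀ n, ∀ i ∈ G, ContinuousOn (fun u => (P n (bc i u) : E →L[ℝ] E)) (ball 0 ρ)
  cont_P' : ∀ n, ∀ i ∈ G, ContinuousOn (fun u => ((P' n (bc i u)).symm : E →L[ℝ] E)) (ball 0 ρ)
  cont_R : ∀ i ∈ G, ContinuousOn (fun u => (R i u : E →L[ℝ] E)) (ball 0 ρ)
  cont_R' : ∀ i ∈ G, ContinuousOn (fun u => ((R' i u).symm : E →L[ℝ] E)) (ball 0 ρ)

namespace HolSys2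

variable {I E : Type*} [NormedAddCommGroup E] [NormedSpace ℝ E] [CompleteSpace E]
  (S : HolSys2 I E)

omit [CompleteSpace E] in
theorem C_nonneg : 0 ≤ S.C := by linarith [S.C_ge]

omit [CompleteSpace E] in
theorem r_lt : S.lam * S.lp * S.mu < 1 := S.pinch

omit [CompleteSpace E] in
theorem r_nonneg : 0 ≤ S.lam * S.lp * S.mu := by
  have := S.lam_pos
  have := S.lp_pos
  have := S.mu_gt
  positivity

/-- the constant -/
noncomputable def C4 : ℝ := S.C ^ 3

omit [CompleteSpace E] in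
theorem C_le_C4 : S.C ≤ S.C4 := by
  have := S.C_ge
  unfold C4
  nlinarith [sq_nonneg (S.C - 1), sq_nonneg S.C]

omit [CompleteSpace E] in
theorem C4_nonneg : 0 ≤ S.C4 := le_trans S.C_nonneg S.C_le_C4

omit [CompleteSpace E] in
theorem A'_inv (i : I) (w : E) : ‖(S.A' i).symm w‖ ≤ S.C * ‖w‖ := by
  have h1 : ∀ w, S.P' 1 i w = S.A' i w := by
    intro w
    have := S.P'_succ 0 i w
    simp only [zero_add, S.P'_zero, Function.iterate_zero, id_eq,
      ContinuousLinearEquiv.refl_apply] at this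
    exact this
  have h2 : (S.A' i).symm w = (S.P' 1 i).symm w := by
    rw [ContinuousLinearEquiv.eq_symm_apply, h1, ContinuousLinearEquiv.apply_symm_apply]
  rw [h2]
  refine (S.P'_inv 1 i w).trans ?_
  have := S.lam_lt
  have := S.lam_pos
  have := S.C_nonneg
  gcongr
  rw [pow_one]
  nlinarith

omit [CompleteSpace E] in
theorem A_inv (i : I) (w : E) : ‖(S.A i).symm w‖ ≤ S.C * ‖w‖ := by
  have h1 : ∀ w, S.P 1 i w = S.A i w := by
    intro w
    have := S.P_succ 0 i w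
    simp only [zero_add, S.P_zero, Function.iterate_zero, id_eq,
      ContinuousLinearEquiv.refl_apply] at this
    exact this
  have h2 : (S.A i).symm w = (S.P 1 i).symm w := by
    rw [ContinuousLinearEquiv.eq_symm_apply, h1, ContinuousLinearEquiv.apply_symm_apply]
  rw [h2]
  refine (S.P_inv 1 i w).trans ?_
  have := S.lam_lt
  have := S.lam_pos
  have := S.C_nonneg
  gcongr
  rw [pow_one]
  nlinarith

omit [CompleteSpace E] in
theorem step_close (n : ℕ) (i : I) :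
    ‖((S.A' (S.nx^[n] i)).symm : E →L[ℝ] E).comp (S.A (S.nx^[n] i) : E →L[ℝ] E) - 1‖ ≤
      S.C4 * S.t i * S.lp ^ n := by
  have hC := S.C_nonneg
  have h1 := S.C_ge
  have hl := S.lp_pos
  have ht := S.t_nonneg i
  have h4 := S.C4_nonneg
  apply ContinuousLinearMap.opNorm_le_bound _ (by positivity)
  intro w
  set j := S.nx^[n] i
  have e1 : (((S.A' j).symm : E →L[ℝ] E).comp (S.A j : E →L[ℝ] E) - 1) w =
      (S.A' j).symm (S.A j w - S.A' j w) := by
    simp
  rw [e1]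
  refine (S.A'_inv j _).trans ?_
  have e2 : ‖S.A j w - S.A' j w‖ ≤ S.C * S.t j * ‖w‖ := by
    rw [norm_sub_rev]; exact S.close j w
  have e3 := S.t_iter n i
  calc S.C * ‖S.A j w - S.A' j w‖ ≤ S.C * (S.C * (S.C * S.lp ^ n * S.t i) * ‖w‖) := by
        gcongr
        exact e2.trans (by gcongr)
    _ = S.C4 * S.t i * S.lp ^ n * ‖w‖ := by unfold C4; ring

omit [CompleteSpace E] in
theorem step_close' (n : ℕ) (i : I) :
    ‖((S.A (S.nx^[n] i)).symm : E →L[ℝ] E).comp (S.A' (S.nx^[n] i) : E →L[ℝ] E) - 1‖ ≤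
      S.C4 * S.t i * S.lp ^ n := by
  have hC := S.C_nonneg
  have h1 := S.C_ge
  have hl := S.lp_pos
  have ht := S.t_nonneg i
  have h4 := S.C4_nonneg
  apply ContinuousLinearMap.opNorm_le_bound _ (by positivity)
  intro w
  set j := S.nx^[n] i
  have e1 : (((S.A j).symm : E →L[ℝ] E).comp (S.A' j : E →L[ℝ] E) - 1) w =
      (S.A j).symm (S.A' j w - S.A j w) := by
    simp
  rw [e1]
  refine (S.A_inv j _).trans ?_
  have e2 := S.close j w
  have e3 := S.t_iter n i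
  calc S.C * ‖S.A' j w - S.A j w‖ ≤ S.C * (S.C * (S.C * S.lp ^ n * S.t i) * ‖w‖) := by
        gcongr
        exact e2.trans (by gcongr)
    _ = S.C4 * S.t i * S.lp ^ n * ‖w‖ := by unfold C4; ring

/-- the constant of the limit -/
noncomputable def KK : ℝ := KL S.C4 (S.lam * S.lp * S.mu)

omit [CompleteSpace E] in
theorem KK_nonneg : 0 ≤ S.KK := KL_nonneg S.C4_nonneg S.r_lt

theorem exists_L (i : I) : ∃ L : E →L[ℝ] E, ∀ n,
    ‖((S.P' n i).symm : E →L[ℝ] E).comp (S.P n i : E →L[ℝ] E) - L‖ ≤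
      S.KK * S.t i * (S.lam * S.lp * S.mu) ^ n := by
  have hC := S.C4_nonneg
  have hl := S.lam_pos
  have hm := S.mu_gt
  refine hol_lim (D := fun n => (S.A (S.nx^[n] i) : E →L[ℝ] E))
    (Di := fun n => ((S.A' (S.nx^[n] i)).symm : E →L[ℝ] E))
    (P := fun n => (S.P n i : E →L[ℝ] E)) (Q := fun n => ((S.P' n i).symm : E →L[ℝ] E))
    hl.le (by linarith) hC S.r_lt ?_ ?_ ?_ ?_ ?_
  · intro n
    ext w
    simp [S.P_succ]
  · intro n
    ext w
    have : (S.P' (n + 1) i).symm w = (S.P' n i).symm ((S.A' (S.nx^[n] i)).symm w) := by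
      rw [ContinuousLinearEquiv.symm_apply_eq, S.P'_succ]
      simp
    simp [this]
  · intro n
    refine ContinuousLinearMap.opNorm_le_bound _ (by positivity) fun w => ?_
    refine (S.P_bd n i w).trans ?_
    gcongr
    exact S.C_le_C4
  · intro n
    refine ContinuousLinearMap.opNorm_le_bound _ (by positivity) fun w => ?_
    refine (S.P'_inv n i w).trans ?_
    gcongr
    exact S.C_le_C4
  · intro n
    exact S.step_close n i

theorem exists_L' (i : I) : ∃ L : E →L[ℝ] E, ∀ n,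
    ‖((S.P n i).symm : E →L[ℝ] E).comp (S.P' n i : E →L[ℝ] E) - L‖ ≤
      S.KK * S.t i * (S.lam * S.lp * S.mu) ^ n := by
  have hC := S.C4_nonneg
  have hl := S.lam_pos
  have hm := S.mu_gt
  refine hol_lim (D := fun n => (S.A' (S.nx^[n] i) : E →L[ℝ] E))
    (Di := fun n => ((S.A (S.nx^[n] i)).symm : E →L[ℝ] E))
    (P := fun n => (S.P' n i : E →L[ℝ] E)) (Q := fun n => ((S.P n i).symm : E →L[ℝ] E))
    hl.le (by linarith) hC S.r_lt ?_ ?_ ?_ ?_ ?_
  · intro n
    ext w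
    simp [S.P'_succ]
  · intro n
    ext w
    have : (S.P (n + 1) i).symm w = (S.P n i).symm ((S.A (S.nx^[n] i)).symm w) := by
      rw [ContinuousLinearEquiv.symm_apply_eq, S.P_succ]
      simp
    simp [this]
  · intro n
    refine ContinuousLinearMap.opNorm_le_bound _ (by positivity) fun w => ?_
    refine (S.P'_bd n i w).trans ?_
    gcongr
    exact S.C_le_C4
  · intro n
    refine ContinuousLinearMap.opNorm_le_bound _ (by positivity) fun w => ?_
    refine (S.P_inv n i w).trans ?_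
    gcongr
    exact S.C_le_C4
  · intro n
    exact S.step_close' n i

/-- the derivative of the holonomy at the base point -/
noncomputable def L (i : I) : E →L[ℝ] E := (S.exists_L i).choose

theorem L_spec (i : I) (n : ℕ) : ‖((S.P' n i).symm : E →L[ℝ] E).comp (S.P n i : E →L[ℝ] E) - S.L i‖
    ≤ S.KK * S.t i * (S.lam * S.lp * S.mu) ^ n := (S.exists_L i).choose_spec n

/-- the inverse -/
noncomputable def L' (i : I) : E →L[ℝ] E := (S.exists_L' i).choose

theorem L'_spec (i : I) (n : ℕ) : ‖((S.P n i).symm : E →L[ℝ] E).comp (S.P' n i : E →L[ℝ] E) - S.L' i‖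
    ≤ S.KK * S.t i * (S.lam * S.lp * S.mu) ^ n := (S.exists_L' i).choose_spec n

theorem L_comp_L' (i : I) : (S.L i).comp (S.L' i) = 1 := by
  refine lim_comp S.r_nonneg S.r_lt (S.L_spec i) (S.L'_spec i) fun n => ?_
  ext w
  simp

theorem L'_comp_L (i : I) : (S.L' i).comp (S.L i) = 1 := by
  refine lim_comp S.r_nonneg S.r_lt (S.L'_spec i) (S.L_spec i) fun n => ?_
  ext w
  simp

/-- `L i` as an equivalence -/
noncomputable def Le (i : I) : E ≃L[ℝ] E :=
  ContinuousLinearEquiv.equivOfInverse (S.L i) (S.L' i)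
    (fun w => by
      have := congrArg (fun F : E →L[ℝ] E => F w) (S.L'_comp_L i)
      simpa using this)
    (fun w => by
      have := congrArg (fun F : E →L[ℝ] E => F w) (S.L_comp_L' i)
      simpa using this)

theorem Le_coe (i : I) : (S.Le i : E →L[ℝ] E) = S.L i := rfl

theorem L_sub_one (i : I) : ‖S.L i - 1‖ ≤ S.KK * S.t i := by
  have := S.L_spec i 0
  rw [S.P_zero, S.P'_zero, pow_zero, mul_one] at this
  have e : ((ContinuousLinearEquiv.refl ℝ E).symm : E →L[ℝ] E).comp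
      (ContinuousLinearEquiv.refl ℝ E : E →L[ℝ] E) = 1 := by
    ext w
    simp
  rw [e] at this
  rwa [norm_sub_rev]

omit [CompleteSpace E] in
theorem P'_symm_succ (n : ℕ) (i : I) (w : E) :
    (S.P' (n + 1) i).symm w = (S.P' n i).symm ((S.A' (S.nx^[n] i)).symm w) := by
  rw [ContinuousLinearEquiv.symm_apply_eq, S.P'_succ]
  simp

/-- the remainder: constants -/
theorem rem : ∃ K κ : ℝ, 0 ≤ K ∧ 0 < κ ∧ ∀ i u, ‖u‖ ≤ 1 →
    ‖S.H i u - S.L i u‖ ≤ K * (1 + S.t i) * ‖u‖ ^ (1 + κ) := by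
  have hl := S.lam_pos
  have hlp := S.lp_pos
  have hm := S.mu_gt
  have hm0 : 0 < S.mu := by linarith
  obtain ⟨κ, hκ, hκ1, h5⟩ := exists_exponent (r := S.lam * S.lp * S.mu) (mu := S.mu)
    (by positivity) S.r_lt hm
  have hC := S.C4_nonneg
  have hC1 := S.C_ge
  have hC0 := S.C_nonneg
  have hCC := S.C_le_C4
  refine ⟨KF S.C4 S.mu (S.lam * S.lp * S.mu) (S.lam * S.lp * S.mu * S.mu ^ κ) κ, κ,
    KF_nonneg hC (by linarith) S.r_lt h5, hκ, fun i u hu => ?_⟩
  have key := hol_deriv3 (lam := S.lam) (lp := S.lp) (mu := S.mu) (C := S.C4)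
    (c := 1 / S.C) (δ := S.t i) (κ := κ)
    (P := fun n => (S.P n i : E →L[ℝ] E)) (Q := fun n => ((S.P' n i).symm : E →L[ℝ] E))
    (h := S.H i) (hn := fun n => S.H (S.nx^[n] i)) (F := fun n => S.F (S.nx^[n] i))
    hl S.lam_lt S.lp_pos hm.le (hC1.trans hCC) (by positivity) (S.t_nonneg i) hκ.le hκ1 S.r_lt
    le_rfl h5 ?_ ?_ ?_ ?_ (S.L_spec i) ?_ ?_ ?_ ?_ ?_ u hu
  · rw [S.H_zero, sub_zero] at key
    exact key
  · rw [S.P_zero]; rfl
  · rw [S.P'_zero]; rfl
  · intro n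
    refine ContinuousLinearMap.opNorm_le_bound _ (by positivity) fun w => ?_
    refine (S.P_bd n i w).trans ?_
    gcongr
  · intro n
    refine ContinuousLinearMap.opNorm_le_bound _ (by positivity) fun w => ?_
    refine (S.P'_inv n i w).trans ?_
    gcongr
  · intro n w
    have h6 := S.P_inv n i (S.P n i w)
    rw [ContinuousLinearEquiv.symm_apply_apply] at h6
    have h7 : 1 / S.C * S.lam⁻¹ ^ n * ‖w‖ ≤ 1 / S.C * S.lam⁻¹ ^ n *
        (S.C * S.lam ^ n * ‖S.P n i w‖) := by gcongr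
    refine h7.trans (le_of_eq ?_)
    have : S.C ≠ 0 := by linarith
    have : S.lam ≠ 0 := hl.ne'
    simp only [ContinuousLinearEquiv.coe_coe, inv_pow]
    field_simp
  · intro n w hw
    simp only [ContinuousLinearEquiv.coe_coe] at hw ⊢
    rw [← S.H_iter n i w hw, ContinuousLinearEquiv.symm_apply_apply]
  · intro n w hw
    refine (S.H_close _ w hw).trans ?_
    have h8 := S.t_iter n i
    have h9 := S.t_nonneg i
    have h10 : 0 ≤ S.t i * S.lp ^ n := by positivity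
    have h11 : S.C * S.C ≤ S.C4 := by
      unfold C4
      nlinarith [mul_nonneg S.C_nonneg S.C_nonneg]
    calc S.C * S.t (S.nx^[n] i) ≤ S.C * (S.C * S.lp ^ n * S.t i) := by gcongr
      _ = (S.C * S.C) * (S.t i * S.lp ^ n) := by ring
      _ ≤ S.C4 * (S.t i * S.lp ^ n) := by gcongr
  · intro w hw
    refine (S.F_quad i w hw).trans ?_
    gcongr
  · intro n w hw hw1
    simp only [ContinuousLinearEquiv.coe_coe] at hw hw1 ⊢
    have hw2 : ‖S.A (S.nx^[n] i) (S.P n i w)‖ ≤ 1 := by rw [← S.P_succ]; exact hw1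
    have h1 := S.R_quad (S.nx^[n] i) (S.P n i w) hw hw2
    have e1 : (S.P' (n + 1) i).symm (S.F (S.nx^[n + 1] i) (S.P (n + 1) i w)) -
        (S.P' n i).symm (S.F (S.nx^[n] i) (S.P n i w)) -
        ((S.P' (n + 1) i).symm (S.F (S.nx^[n + 1] i) 0) -
          (S.P' n i).symm (S.F (S.nx^[n] i) 0)) -
        ((S.P' (n + 1) i).symm (S.P (n + 1) i w) - (S.P' n i).symm (S.P n i w)) =
        (S.P' n i).symm (((S.A' (S.nx^[n] i)).symm
          (S.F (S.nx (S.nx^[n] i)) (S.A (S.nx^[n] i) (S.P n i w))) -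
            S.F (S.nx^[n] i) (S.P n i w)) -
          ((S.A' (S.nx^[n] i)).symm (S.F (S.nx (S.nx^[n] i)) 0) - S.F (S.nx^[n] i) 0) -
          ((S.A' (S.nx^[n] i)).symm (S.A (S.nx^[n] i) (S.P n i w)) - S.P n i w)) := by
      simp only [P'_symm_succ, S.P_succ, Function.iterate_succ_apply', map_sub]
    rw [e1]
    refine (S.P'_inv n i _).trans ?_
    calc S.C * S.lam ^ n * ‖_‖ ≤ S.C * S.lam ^ n *
          (S.C * (S.C * S.lp ^ n * S.t i) * ‖S.P n i w‖ ^ 2) := by
          have h2 := S.t_iter n i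
          gcongr
          exact h1.trans (by gcongr)
      _ = S.C4 * (S.t i * (S.lam * S.lp) ^ n) * ‖S.P n i w‖ ^ 2 := by
          rw [mul_pow]; unfold C4; ring

/-- **the holonomy is differentiable at the base point** -/
theorem hasFDerivAt_zero (i : I) : HasFDerivAt (S.H i) (S.L i) 0 := by
  obtain ⟨K, κ, hK, hκ, hb⟩ := S.rem
  exact hasFDerivAt_of_rem hκ (S.H_zero i) (hb i)

/-- the derivative of `H i` -/
noncomputable def DH (i : I) (u : E) : E →L[ℝ] E :=
  ((S.R' i u).symm : E →L[ℝ] E).comp ((S.L (S.bc i u)).comp (S.R i u : E →L[ℝ] E))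

theorem hasFDerivAt {i : I} (hi : i ∈ S.G) {u : E} (hu : ‖u‖ < S.ρ) :
    HasFDerivAt (S.H i) (S.DH i u) u := by
  have h1 : HasFDerivAt (fun w => S.H (S.bc i u) (S.R i u w))
      ((S.L (S.bc i u)).comp (S.R i u : E →L[ℝ] E)) 0 := by
    have h2 : HasFDerivAt (S.H (S.bc i u)) (S.L (S.bc i u)) (S.R i u 0) := by
      rw [map_zero]; exact S.hasFDerivAt_zero _
    exact h2.comp 0 (S.R i u : E →L[ℝ] E).hasFDerivAt
  have h3 : HasFDerivAt (fun w => (S.R' i u).symm (S.H (S.bc i u) (S.R i u w))) (S.DH i u) 0 :=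
    ((S.R' i u).symm : E →L[ℝ] E).hasFDerivAt.comp 0 h1
  have h4 : HasFDerivAt (fun w => S.H i (u + w) - S.H i u) (S.DH i u) 0 := by
    refine h3.congr_of_eventuallyEq ?_
    filter_upwards [S.H_bc i hi u hu] with w hw
    rw [hw, ContinuousLinearEquiv.symm_apply_apply]
  have h5 : HasFDerivAt (fun w => S.H i (u + w)) (S.DH i u) 0 := by
    have := h4.add_const (S.H i u)
    simpa using this
  rw [hasFDerivAt_iff_isLittleO_nhds_zero]
  rw [hasFDerivAt_iff_isLittleO_nhds_zero] at h5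
  simpa using h5

theorem continuousOn_L {i : I} (hi : i ∈ S.G) : ContinuousOn (fun u => S.L (S.bc i u)) (ball 0 S.ρ) := by
  refine continuousOn_of_geo (A := fun n u => ((S.P' n (S.bc i u)).symm : E →L[ℝ] E).comp
    (S.P n (S.bc i u) : E →L[ℝ] E)) S.r_nonneg S.r_lt ?_ ?_
  · intro n
    exact (S.cont_P' n i hi).clm_comp (S.cont_P n i hi)
  · intro y hy
    refine ⟨S.KK * S.C, ball 0 S.ρ, self_mem_nhdsWithin, fun z hz n => ?_⟩
    refine (S.L_spec (S.bc i z) n).trans ?_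
    have := S.KK_nonneg
    have := S.r_nonneg
    have := S.t_bd (S.bc i z)
    gcongr

theorem continuousOn_DH {i : I} (hi : i ∈ S.G) : ContinuousOn (S.DH i) (ball 0 S.ρ) :=
  (S.cont_R' i hi).clm_comp ((S.continuousOn_L hi).clm_comp (S.cont_R i hi))

/-- **the holonomy is `C¹`** -/
theorem contDiffOn {i : I} (hi : i ∈ S.G) : ContDiffOn ℝ 1 (S.H i) (ball 0 S.ρ) :=
  contDiffOn_one_of_hasFDerivAt isOpen_ball
    (fun u hu => S.hasFDerivAt hi (by simpa using hu)) (S.continuousOn_DH hi)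

/-- the derivative is invertible -/
theorem DH_isInvertible (i : I) (u : E) : (S.DH i u).IsInvertible :=
  ⟨(S.R i u).trans ((S.Le (S.bc i u)).trans (S.R' i u).symm), by
    ext w
    simp only [DH, ContinuousLinearEquiv.coe_coe, ContinuousLinearEquiv.trans_apply,
      ContinuousLinearMap.comp_apply]
    rw [← S.Le_coe]
    rfl⟩

end HolSys2

end Vale.Agent.P207.H832.T3
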