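import Vale.Agent.P207.H832.T3.T3In2

/-!
# P207, all dimensions: T3, the stable holonomy is `C¹` in affine charts, for `lb < la + lc`
-/

namespace Vale.Agent.P207.H832.T3

open Filter Topology Set Metric

namespace T3In2

variable {X B E : Type*} [TopologicalSpace X] [TopologicalSpace B] [NormedAddCommGroup E]
    [NormedSpace ℝ E] (S : T3In2 X B E)

/-! ### continuity -/

theorem tr_ne (x : X) (u v : E) : S.ai x v ≠ S.em (S.tr x u) := by
  rw [S.em_tr]; exact S.ai_ne x v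

theorem holtr_cont {x : X} {ξ : B} {s : Set E} (h : ∀ u ∈ s, ξ ≠ S.ep (S.tr x u)) :
    ContinuousOn (fun u => S.hol ξ (S.tr x u)) s := by
  have h1 : Continuous fun u : E => (ξ, S.tr x u) := continuous_const.prodMk (S.tr_cont x)
  exact S.hol_cont.comp h1.continuousOn h

/-- joint continuity of `a`, along continuous maps -/
theorem a_comp {Y : Type*} [TopologicalSpace Y] {s : Set Y} {f : Y → X} {g : Y → B}
    (hf : ContinuousOn f s) (hg : ContinuousOn g s) (h : ∀ y ∈ s, g y ≠ S.em (f y)) :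
    ContinuousOn (fun y => S.a (f y) (g y)) s :=
  S.a_cont.comp (hf.prodMk hg) h

theorem ai_comp {Y : Type*} [TopologicalSpace Y] {s : Set Y} {f : Y → X} {g : Y → E}
    (hf : ContinuousOn f s) (hg : ContinuousOn g s) :
    ContinuousOn (fun y => S.ai (f y) (g y)) s :=
  S.ai_cont.comp_continuousOn (hf.prodMk hg)

theorem D_comp {Y : Type*} [TopologicalSpace Y] {s : Set Y} {f : Y → X} {g : Y → E} (t : ℝ)
    (hf : ContinuousOn f s) (hg : ContinuousOn g s) :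
    ContinuousOn (fun y => S.D t (f y) (g y)) s := by
  simp only [S.D_apply]
  exact S.a_comp ((S.φ_cont t).comp_continuousOn hf) (S.ai_comp hf hg)
    fun y _ => by rw [S.em_φ]; exact S.ai_ne _ _

theorem Dsymm_comp {Y : Type*} [TopologicalSpace Y] {s : Set Y} {f : Y → X} {g : Y → E} (t : ℝ)
    (hf : ContinuousOn f s) (hg : ContinuousOn g s) :
    ContinuousOn (fun y => (S.D t (f y)).symm (g y)) s := by
  simp only [S.D_symm_apply]
  exact S.a_comp hf (S.ai_comp ((S.φ_cont t).comp_continuousOn hf) hg)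
    fun y _ => by rw [← S.em_φ t]; exact S.ai_ne _ _

theorem Lin_comp {Y : Type*} [TopologicalSpace Y] {s : Set Y} {f f' : Y → X} (v : E)
    (hf : ContinuousOn f s) (hf' : ContinuousOn f' s) (h : ∀ y ∈ s, S.em (f y) = S.em (f' y)) :
    ContinuousOn (fun y => S.Lin (f y) (f' y) v) s := by
  have h1 : ∀ y ∈ s, S.Lin (f y) (f' y) v =
      S.a (f' y) (S.ai (f y) v) - S.a (f' y) (S.ai (f y) 0) := fun y hy => S.Lin_apply (h y hy) v
  refine ContinuousOn.congr ?_ h1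
  exact (S.a_comp hf' (S.ai_comp hf continuousOn_const) fun y hy => by
    rw [← h y hy]; exact S.ai_ne _ _).sub
    (S.a_comp hf' (S.ai_comp hf continuousOn_const) fun y hy => by
    rw [← h y hy]; exact S.ai_ne _ _)

theorem Linsymm_comp {Y : Type*} [TopologicalSpace Y] {s : Set Y} {f f' : Y → X} {g : Y → E}
    (hf : ContinuousOn f s) (hf' : ContinuousOn f' s) (hg : ContinuousOn g s)
    (h : ∀ y ∈ s, S.em (f y) = S.em (f' y)) :
    ContinuousOn (fun y => (S.Lin (f y) (f' y)).symm (g y)) s := by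
  have h1 : ∀ y ∈ s, (S.Lin (f y) (f' y)).symm (g y) =
      S.a (f y) (S.ai (f' y) (g y)) - S.a (f y) (S.ai (f' y) 0) :=
    fun y hy => S.Lin_symm_apply (h y hy) _
  refine ContinuousOn.congr ?_ h1
  exact (S.a_comp hf (S.ai_comp hf' hg) fun y hy => by
    rw [h y hy]; exact S.ai_ne _ _).sub
    (S.a_comp hf (S.ai_comp hf' continuousOn_const) fun y hy => by
    rw [h y hy]; exact S.ai_ne _ _)

variable [FiniteDimensional ℝ E]

theorem clm_of_apply {Y : Type*} [TopologicalSpace Y] {s : Set Y} {f : Y → E →L[ℝ] E}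
    (h : ∀ v, ContinuousOn (fun y => f y v) s) : ContinuousOn f s :=
  continuousOn_clm_apply.2 h

theorem M_comp {Y : Type*} [TopologicalSpace Y] {s : Set Y} {f : Y → X} {g : Y → E} (ξ : B)
    (hf : ContinuousOn f s) (hg : ContinuousOn g s) (h : ∀ y ∈ s, (f y, ξ) ∈ S.Cl) :
    ContinuousOn (fun y => S.M (f y) ξ (g y)) s := by
  have h1 : ContinuousOn (fun y => (S.M (f y) ξ : E →L[ℝ] E)) s :=
    clm_of_apply fun v => (S.M_cont ξ v).comp hf h
  exact h1.clm_apply hg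

theorem Msymm_comp {Y : Type*} [TopologicalSpace Y] {s : Set Y} {f : Y → X} {g : Y → E} (ξ : B)
    (hf : ContinuousOn f s) (hg : ContinuousOn g s) (h : ∀ y ∈ s, (f y, ξ) ∈ S.Cl) :
    ContinuousOn (fun y => (S.M (f y) ξ).symm (g y)) s := by
  have h1 : ContinuousOn (fun y => ((S.M (f y) ξ).symm : E →L[ℝ] E)) s :=
    clm_of_apply fun v => (S.Mi_cont ξ v).comp hf h
  exact h1.clm_apply hg

variable [T1Space B]

/-- the `HolSys2` of the input -/
noncomputable def sys : HolSys2 S.I E where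
  nx := S.nx
  t p := S.t p.1.1 p.1.2
  t_nonneg p := S.t_nonneg _ _
  A p := S.D S.T p.1.1
  A' := S.A'
  lam := Real.exp (-S.la * S.T)
  mu := Real.exp (S.lb * S.T)
  C := S.C ^ 3
  lam_pos := Real.exp_pos _
  lam_lt := by
    rw [Real.exp_lt_one_iff]
    nlinarith [S.la_pos, S.T_pos]
  lp := Real.exp (-S.lc * S.T)
  lp_pos := Real.exp_pos _
  lp_le := by
    rw [Real.exp_le_one_iff]
    nlinarith [S.lc_pos, S.T_pos]
  mu_gt := by
    rw [Real.one_lt_exp_iff]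
    exact mul_pos S.lb_pos S.T_pos
  pinch := by
    rw [← Real.exp_add, ← Real.exp_add, Real.exp_lt_one_iff]
    nlinarith [S.pinch, S.T_pos]
  t_bd p := (S.t_bd _ _ (S.mem_Cl p)).trans S.C3.2.1
  C_ge := S.C3.1
  t_iter n p := by
    rw [S.nx_iter, S.exp_pow]
    refine (S.t_iter p.1.1 p.1.2 p.2 n).trans ?_
    have := S.t_nonneg p.1.1 p.1.2
    gcongr
    exact S.C3.2.1
  P n p := S.D ((n : ℝ) * S.T) p.1.1
  P_zero p := by
    ext v
    simp [S.D_zero]
  P_succ n p w := by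
    have e : ((n + 1 : ℕ) : ℝ) * S.T = S.T + (n : ℝ) * S.T := by push_cast; ring
    rw [e, S.D_add, S.nx_iter]
  P' := S.P'
  P'_zero p := by
    ext v
    simp [S.P'_apply, S.D_zero, S.φ_zero]
  P'_succ n p w := by
    have hx : p.1.2 ≠ S.ep p.1.1 := S.Cl_ne _ _ (S.mem_Cl p)
    have e : ((n + 1 : ℕ) : ℝ) * S.T = S.T + (n : ℝ) * S.T := by push_cast; ring
    rw [S.P'_apply, A'_apply, S.nx_iter, S.P'_apply, ContinuousLinearEquiv.apply_symm_apply,
      S.hol_φ _ _ _ hx, e, S.D_add, S.φ_add]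
  P_bd n p w := by
    rw [S.exp_pow]
    refine (S.D_le _ _ _ (by have := S.T_pos; positivity)).trans ?_
    gcongr
    exact S.C3.2.1
  P_inv n p w := by
    rw [S.exp_pow]
    refine (S.D_inv _ _ _ (by have := S.T_pos; positivity)).trans ?_
    gcongr
    exact S.C3.2.1
  P'_bd n p w := by
    rw [S.exp_pow, S.P'_apply]
    have hC := S.C3.2.2.1
    have hT := S.T_pos
    refine (S.M_inv _ _ (p.2 n) _).trans ?_
    calc S.C * ‖S.D ((n : ℝ) * S.T) (S.hol p.1.2 p.1.1) (S.M p.1.1 p.1.2 w)‖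
        ≤ S.C * (S.C * Real.exp (S.lb * ((n : ℝ) * S.T)) * (S.C * ‖w‖)) := by
          gcongr
          refine (S.D_le _ _ _ (by positivity)).trans ?_
          gcongr
          exact S.M_le _ _ (S.mem_Cl p) w
      _ = S.C ^ 3 * Real.exp (S.lb * ((n : ℝ) * S.T)) * ‖w‖ := by ring
  P'_inv n p w := by
    rw [S.exp_pow, S.P'_symm_apply]
    have hC := S.C3.2.2.1
    have hT := S.T_pos
    refine (S.M_inv _ _ (S.mem_Cl p) _).trans ?_
    calc S.C * ‖(S.D ((n : ℝ) * S.T) (S.hol p.1.2 p.1.1)).symm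
          (S.M (S.φ ((n : ℝ) * S.T) p.1.1) p.1.2 w)‖
        ≤ S.C * (S.C * Real.exp (-S.la * ((n : ℝ) * S.T)) * (S.C * ‖w‖)) := by
          gcongr
          refine (S.D_inv _ _ _ (by positivity)).trans ?_
          gcongr
          exact S.M_le _ _ (p.2 n) w
      _ = S.C ^ 3 * Real.exp (-S.la * ((n : ℝ) * S.T)) * ‖w‖ := by ring
  close p w := by
    rw [S.A'_apply]
    have h1 : (S.φ S.T p.1.1, p.1.2) ∈ S.Cl := S.mem_Cl (S.nx p)
    refine (S.F2 _ _ (S.mem_Cl p) h1 w).trans ?_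
    have := S.t_nonneg p.1.1 p.1.2
    gcongr
    exact S.C3.2.1
  H := S.H
  H_iter n p w hw := by
    have hx : p.1.2 ≠ S.ep p.1.1 := S.Cl_ne _ _ (S.mem_Cl p)
    have h1 : S.ai p.1.1 w ≠ p.1.2 := by
      have := S.Cl_far _ _ (p.2 n) _ hw
      rwa [S.ai_φ] at this
    rw [S.P'_apply, H, H, ContinuousLinearEquiv.apply_symm_apply, S.nx_iter]
    simp only
    rw [S.ai_φ, S.hol_φ _ _ _ hx, S.a_φ]
    rw [S.hol_em _ _ hx]; exact h1
  H_zero p := by
    have hx : p.1.2 ≠ S.ep p.1.1 := S.Cl_ne _ _ (S.mem_Cl p)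
    have h1 : S.ai p.1.1 0 = S.ep p.1.1 := by
      rw [← S.a_ep p.1.1, S.ai_a _ _ (S.em_ne_ep _).symm]
    change (S.M p.1.1 p.1.2).symm (S.a (S.hol p.1.2 p.1.1) (S.ai p.1.1 0)) = 0
    rw [h1, ← S.hol_ep _ _ hx, S.a_ep, map_zero]
  F p w := (S.M p.1.1 p.1.2).symm (S.F p.1.1 p.1.2 w)
  H_close p w hw := by
    change ‖(S.M p.1.1 p.1.2).symm (S.a (S.hol p.1.2 p.1.1) (S.ai p.1.1 w)) -
      (S.M p.1.1 p.1.2).symm (S.F p.1.1 p.1.2 w)‖ ≤ _
    rw [← map_sub]
    have ht := S.t_nonneg p.1.1 p.1.2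
    have hC := S.C3.2.2.1
    calc _ ≤ S.C * ‖S.a (S.hol p.1.2 p.1.1) (S.ai p.1.1 w) - S.F p.1.1 p.1.2 w‖ :=
          S.M_inv _ _ (S.mem_Cl p) _
      _ ≤ S.C * (S.C * S.t p.1.1 p.1.2) := by
          gcongr
          exact S.F1 _ _ (S.mem_Cl p) w hw
      _ = S.C ^ 2 * S.t p.1.1 p.1.2 := by ring
      _ ≤ _ := by
          gcongr ?_ * _
          exact S.C3.2.2.2
  F_quad p w hw := by
    have hC := S.C3.2.2.1
    have e1 : (S.M p.1.1 p.1.2).symm (S.F p.1.1 p.1.2 w) -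
        (S.M p.1.1 p.1.2).symm (S.F p.1.1 p.1.2 0) - w =
        (S.M p.1.1 p.1.2).symm (S.F p.1.1 p.1.2 w - S.F p.1.1 p.1.2 0 - S.M p.1.1 p.1.2 w) := by
      rw [map_sub, map_sub, ContinuousLinearEquiv.symm_apply_apply]
    rw [e1]
    calc _ ≤ S.C * ‖S.F p.1.1 p.1.2 w - S.F p.1.1 p.1.2 0 - S.M p.1.1 p.1.2 w‖ :=
          S.M_inv _ _ (S.mem_Cl p) _
      _ ≤ S.C * (S.C * ‖w‖ ^ 2) := by
          gcongr
          exact S.F0 _ _ (S.mem_Cl p) w hw
      _ = S.C ^ 2 * ‖w‖ ^ 2 := by ring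
      _ ≤ _ := by
          gcongr ?_ * _
          exact S.C3.2.2.2
  R_quad p w hw hw1 := by
    have hC := S.C3.2.2.1
    have ht := S.t_nonneg p.1.1 p.1.2
    have h1 : (S.φ S.T p.1.1, p.1.2) ∈ S.Cl := S.mem_Cl (S.nx p)
    have hA : ∀ v, (S.A' p).symm v = (S.M p.1.1 p.1.2).symm
        ((S.D S.T (S.hol p.1.2 p.1.1)).symm (S.M (S.φ S.T p.1.1) p.1.2 v)) := fun v => rfl
    have e1 : ((S.A' p).symm ((S.M (S.nx p).1.1 (S.nx p).1.2).symm
          (S.F (S.nx p).1.1 (S.nx p).1.2 (S.D S.T p.1.1 w))) -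
          (S.M p.1.1 p.1.2).symm (S.F p.1.1 p.1.2 w)) -
        ((S.A' p).symm ((S.M (S.nx p).1.1 (S.nx p).1.2).symm
          (S.F (S.nx p).1.1 (S.nx p).1.2 0)) - (S.M p.1.1 p.1.2).symm (S.F p.1.1 p.1.2 0)) -
        ((S.A' p).symm (S.D S.T p.1.1 w) - w) =
        (S.M p.1.1 p.1.2).symm
        (((S.D S.T (S.hol p.1.2 p.1.1)).symm (S.F (S.φ S.T p.1.1) p.1.2 (S.D S.T p.1.1 w)) -
          S.F p.1.1 p.1.2 w) -
        ((S.D S.T (S.hol p.1.2 p.1.1)).symm (S.F (S.φ S.T p.1.1) p.1.2 0) - S.F p.1.1 p.1.2 0) -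
        ((S.D S.T (S.hol p.1.2 p.1.1)).symm (S.M (S.φ S.T p.1.1) p.1.2 (S.D S.T p.1.1 w)) -
          S.M p.1.1 p.1.2 w)) := by
      change ((S.A' p).symm ((S.M (S.φ S.T p.1.1) p.1.2).symm
          (S.F (S.φ S.T p.1.1) p.1.2 (S.D S.T p.1.1 w))) -
          (S.M p.1.1 p.1.2).symm (S.F p.1.1 p.1.2 w)) -
        ((S.A' p).symm ((S.M (S.φ S.T p.1.1) p.1.2).symm
          (S.F (S.φ S.T p.1.1) p.1.2 0)) - (S.M p.1.1 p.1.2).symm (S.F p.1.1 p.1.2 0)) -
        ((S.A' p).symm (S.D S.T p.1.1 w) - w) = _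
      simp only [hA, map_sub, ContinuousLinearEquiv.apply_symm_apply,
        ContinuousLinearEquiv.symm_apply_apply]
    rw [e1]
    refine (S.M_inv _ _ (S.mem_Cl p) _).trans ?_
    calc _ ≤ S.C * (S.C * S.t p.1.1 p.1.2 * ‖w‖ ^ 2) := by
          gcongr
          exact S.F3 _ _ (S.mem_Cl p) h1 w hw hw1
      _ = S.C ^ 2 * S.t p.1.1 p.1.2 * ‖w‖ ^ 2 := by ring
      _ ≤ _ := by
          gcongr ?_ * _ * _
          exact S.C3.2.2.2
  G := {p | (p.1.1, p.1.2) ∈ S.G}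
  ρ := S.ρ
  ρ_pos := S.ρ_pos
  bc := S.bc
  R p u := S.Lin p.1.1 (S.tr p.1.1 u)
  R' := S.R'
  H_bc p hp u hu := S.H_bc hp hu
  cont_P n p hp := by
    apply clm_of_apply
    intro v
    have h1 : ∀ u ∈ ball (0 : E) S.ρ, S.D ((n : ℝ) * S.T) (S.bc p u).1.1 v =
        S.D ((n : ℝ) * S.T) (S.tr p.1.1 u) v := by
      intro u hu
      rw [S.bc_val hp (by simpa using hu)]
    exact (S.D_comp _ (S.tr_cont p.1.1).continuousOn continuousOn_const).congr h1
  cont_P' n p hp := by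
    apply clm_of_apply
    intro v
    have h1 : ∀ u ∈ ball (0 : E) S.ρ, (S.P' n (S.bc p u)).symm v =
        (S.M (S.tr p.1.1 u) p.1.2).symm ((S.D ((n : ℝ) * S.T) (S.hol p.1.2 (S.tr p.1.1 u))).symm
          (S.M (S.φ ((n : ℝ) * S.T) (S.tr p.1.1 u)) p.1.2 v)) := by
      intro u hu
      rw [S.P'_symm_apply, S.bc_val hp (by simpa using hu)]
    refine ContinuousOn.congr ?_ h1
    have h2 : ContinuousOn (S.tr p.1.1) (ball 0 S.ρ) := (S.tr_cont p.1.1).continuousOn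
    have hm : ∀ u ∈ ball (0 : E) S.ρ, (S.tr p.1.1 u, p.1.2) ∈ S.Cl :=
      fun u hu => S.tr_mem hp (by simpa using hu)
    refine S.Msymm_comp _ h2 (S.Dsymm_comp _ (S.holtr_cont fun u hu => S.Cl_ne _ _ (hm u hu)) ?_) hm
    refine S.M_comp _ ((S.φ_cont _).comp_continuousOn h2) continuousOn_const fun u hu => ?_
    exact S.G_cl _ _ hp u (by simpa using hu) n
  cont_R p hp := by
    apply clm_of_apply
    intro v
    exact S.Lin_comp v continuousOn_const (S.tr_cont p.1.1).continuousOn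
      fun u _ => (S.em_tr _ _).symm
  cont_R' p hp := by
    apply clm_of_apply
    intro v
    have h2 : ContinuousOn (S.tr p.1.1) (ball 0 S.ρ) := (S.tr_cont p.1.1).continuousOn
    have hm : ∀ u ∈ ball (0 : E) S.ρ, (S.tr p.1.1 u, p.1.2) ∈ S.Cl :=
      fun u hu => S.tr_mem hp (by simpa using hu)
    have hx : p.1.2 ≠ S.ep p.1.1 := S.Cl_ne _ _ (S.mem_Cl p)
    refine S.Msymm_comp _ continuousOn_const (S.Linsymm_comp continuousOn_const
      (S.holtr_cont fun u hu => S.Cl_ne _ _ (hm u hu)) (S.M_comp _ h2 continuousOn_const hm)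
      fun u hu => ?_) fun u hu => S.mem_Cl p
    rw [S.hol_em _ _ hx, S.hol_em _ _ (S.Cl_ne _ _ (hm u hu))]

/-! ### conclusions -/

/-- the pair of a good pair -/
def pr (x : X) (ξ : B) (h : (x, ξ) ∈ S.G) : S.I := ⟨(x, ξ), S.G_self x ξ h⟩

/-- **T3, close leaves**: the normalised holonomy has the derivative `L`, `‖L - 1‖ ≤ K t`. -/
theorem good_deriv {x : X} {ξ : B} (h : (x, ξ) ∈ S.G) :
    HasFDerivAt (fun u => (S.M x ξ).symm (S.a (S.hol ξ x) (S.ai x u))) (S.sys.L (S.pr x ξ h)) 0 ∧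
      ‖S.sys.L (S.pr x ξ h) - 1‖ ≤ S.sys.KK * S.t x ξ :=
  ⟨S.sys.hasFDerivAt_zero (S.pr x ξ h), S.sys.L_sub_one (S.pr x ξ h)⟩

theorem good_C1 {x : X} {ξ : B} (h : (x, ξ) ∈ S.G) :
    ContDiffOn ℝ 1 (fun u => S.a (S.hol ξ x) (S.ai x u)) (ball 0 S.ρ) ∧
    ∀ u ∈ ball (0 : E) S.ρ,
      (fderiv ℝ (fun u => S.a (S.hol ξ x) (S.ai x u)) u).IsInvertible := by
  have h1 := S.sys.contDiffOn (i := S.pr x ξ h) h
  have e : (fun u => S.a (S.hol ξ x) (S.ai x u)) = fun u => S.M x ξ (S.sys.H (S.pr x ξ h) u) := by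
    funext u
    exact (ContinuousLinearEquiv.apply_symm_apply _ _).symm
  refine ⟨?_, fun u hu => ?_⟩
  · rw [e]
    exact (S.M x ξ).contDiff.comp_contDiffOn h1
  · have h2 := S.sys.hasFDerivAt (i := S.pr x ξ h) h (u := u) (by
      have : ‖u‖ < S.ρ := by simpa using hu
      exact this)
    have h3 : HasFDerivAt (fun u => S.a (S.hol ξ x) (S.ai x u))
        ((S.M x ξ : E →L[ℝ] E).comp (S.sys.DH (S.pr x ξ h) u)) u := by
      rw [e]
      exact (S.M x ξ : E →L[ℝ] E).hasFDerivAt.comp u h2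
    rw [h3.fderiv]
    obtain ⟨q, hq⟩ := S.sys.DH_isInvertible (S.pr x ξ h) u
    exact ⟨q.trans (S.M x ξ), by rw [← hq]; rfl⟩

/-- local form at one point -/
theorem hol_at {x y : X} {z : E} (h : S.ai x z ≠ S.em y) :
    ContDiffAt ℝ 1 (fun z => S.a y (S.ai x z)) z ∧
      (fderiv ℝ (fun z => S.a y (S.ai x z)) z).IsInvertible := by
  set w := S.tr x z with hw
  have hw1 : S.em y ≠ S.ep w := by rw [hw, S.ep_tr]; exact h.symm
  obtain ⟨n, hn⟩ := S.far w (S.em y) hw1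
  set v := S.φ ((n : ℝ) * S.T) w with hv
  set ξ := S.em y with hξ
  obtain ⟨hC, hI⟩ := S.good_C1 hn
  have hemv : S.em x = S.em v := by rw [hv, S.em_φ, hw, S.em_tr]
  have hepv : S.ep v = S.ai x z := by rw [hv, S.ep_φ, hw, S.ep_tr]
  have hne : ξ ≠ S.ep v := by rw [hepv]; exact h.symm
  have hemh : S.em (S.hol ξ v) = S.em y := by rw [S.hol_em _ _ hne]
  obtain ⟨R, b, hR⟩ := S.a_aff x v hemv
  obtain ⟨R', b', hR'⟩ := S.a_aff (S.hol ξ v) y hemh
  -- the composition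
  have hev : ∀ᶠ z' in 𝓝 z, S.ai x z' ≠ ξ := by
    have hc : Continuous fun z' : E => S.ai x z' :=
      S.ai_cont.comp (continuous_const.prodMk continuous_id)
    exact hc.continuousAt.eventually (isOpen_ne.mem_nhds h)
  have heq : (fun z => S.a y (S.ai x z)) =ᶠ[𝓝 z]
      fun z' => R' (S.a (S.hol ξ v) (S.ai v (R z' + b))) + b' := by
    filter_upwards [hev] with z' hz'
    have e1 : S.ai v (R z' + b) = S.ai x z' := by
      have := hR _ (S.ai_ne x z')
      rw [S.a_ai] at this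
      rw [← this, S.ai_a]
      rw [← hemv]; exact S.ai_ne x z'
    rw [e1, ← hR' _ (by rw [hemh]; exact hz')]
  have e0 : R z + b = 0 := by
    have := hR _ (S.ai_ne x z)
    rw [S.a_ai] at this
    rw [← this, ← hepv, S.a_ep]
  have hCz : ContDiffAt ℝ 1 (fun u => S.a (S.hol ξ v) (S.ai v u)) (R z + b) := by
    rw [e0]
    exact hC.contDiffAt (ball_mem_nhds _ S.ρ_pos)
  have hRd : HasFDerivAt (fun z' => R z' + b) (R : E →L[ℝ] E) z :=
    (R : E →L[ℝ] E).hasFDerivAt.add_const b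
  have hRc : ContDiffAt ℝ 1 (fun z' => R z' + b) z :=
    R.contDiff.contDiffAt.add contDiffAt_const
  constructor
  · refine ContDiffAt.congr_of_eventuallyEq ?_ heq
    have h1 : ContDiffAt ℝ 1 (fun z' => S.a (S.hol ξ v) (S.ai v (R z' + b))) z :=
      ContDiffAt.comp (g := fun u => S.a (S.hol ξ v) (S.ai v u)) (f := fun z' => R z' + b)
        z hCz hRc
    exact (R'.contDiff.contDiffAt.comp z h1).add contDiffAt_const
  · have h1 : HasFDerivAt (fun u => S.a (S.hol ξ v) (S.ai v u))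
        (fderiv ℝ (fun u => S.a (S.hol ξ v) (S.ai v u)) (R z + b)) (R z + b) :=
      (hCz.differentiableAt one_ne_zero).hasFDerivAt
    have h2 : HasFDerivAt (fun z' => S.a (S.hol ξ v) (S.ai v (R z' + b)))
        ((fderiv ℝ (fun u => S.a (S.hol ξ v) (S.ai v u)) (R z + b)).comp (R : E →L[ℝ] E)) z :=
      HasFDerivAt.comp (g := fun u => S.a (S.hol ξ v) (S.ai v u)) (f := fun z' => R z' + b)
        z h1 hRd
    have h3 : HasFDerivAt (fun z' => R' (S.a (S.hol ξ v) (S.ai v (R z' + b))) + b')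
        ((R' : E →L[ℝ] E).comp
          ((fderiv ℝ (fun u => S.a (S.hol ξ v) (S.ai v u)) (R z + b)).comp (R : E →L[ℝ] E))) z :=
      ((R' : E →L[ℝ] E).hasFDerivAt.comp z h2).add_const b'
    have h4 := h3.congr_of_eventuallyEq heq
    rw [h4.fderiv]
    obtain ⟨q, hq⟩ := hI (R z + b) (by rw [e0]; exact mem_ball_self S.ρ_pos)
    exact ⟨(R.trans q).trans R', by rw [← hq]; rfl⟩

/-- **T3**: the stable holonomy from the leaf of `x` to the leaf of `y` is `C¹` -/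
theorem hol_C1 (x y : X) :
    ContDiffOn ℝ 1 (fun z => S.a y (S.ai x z)) {z | S.ai x z ≠ S.em y} :=
  fun _ hz => (S.hol_at hz).1.contDiffWithinAt

theorem hol_inv (x y : X) {z : E} (hz : S.ai x z ≠ S.em y) :
    (fderiv ℝ (fun z => S.a y (S.ai x z)) z).IsInvertible := (S.hol_at hz).2

end T3In2

end Vale.Agent.P207.H832.T3
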